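import Vale.Agent.Lib.P243.Hausdorff

/-! P243: the half-area inequality for cylinder coverings whose axes are parallel to one plane. -/

namespace Vale.Agent.Results.P243.CoplanarAxes

open MeasureTheory
open scoped ENNReal

/-- Let `K` be a compact convex set in Euclidean three-space covered by finitely many cylinders
`B i + ℝ (u i)`, with `u i` a unit vector and the base `B i` any subset of the plane orthogonal to
`u i`, and suppose that all the axis directions `u i` are orthogonal to one unit vector `e`.
Areas are measured by `μHE[2]`, the two-dimensional Euclidean Hausdorff measure of Mathlib (planar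
Lebesgue measure on every plane); `x - (inner v x) • v` is the orthogonal projection of `x` onto
the plane orthogonal to the unit vector `v`.  Then the sum of the base areas is at least one half
of the smallest area of a projection of `K` along a unit direction orthogonal to `e`, hence at
least one half of the smallest area of all orthogonal projections of `K` onto planes. -/
theorem result (K : Set (EuclideanSpace ℝ (Fin 3))) (hconv : Convex ℝ K) (hcomp : IsCompact K)
    (m : ℕ) (u : Fin m → EuclideanSpace ℝ (Fin 3)) (hu : ∀ i, ‖u i‖ = 1)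
    (e : EuclideanSpace ℝ (Fin 3)) (he : ‖e‖ = 1) (hcop : ∀ i, inner ℝ e (u i) = 0)
    (B : Fin m → Set (EuclideanSpace ℝ (Fin 3))) (hB : ∀ i, ∀ b ∈ B i, inner ℝ (u i) b = 0)
    (hcov : ∀ x ∈ K, ∃ i, ∃ b ∈ B i, ∃ t : ℝ, x = b + t • u i) :
    (1 / 2 : ℝ≥0∞) * (⨅ v : {v : EuclideanSpace ℝ (Fin 3) // ‖v‖ = 1 ∧ inner ℝ e v = 0},
        μHE[2] ((fun x : EuclideanSpace ℝ (Fin 3) => x - (inner ℝ v.1 x : ℝ) • v.1) '' K))
      ≤ ∑ i, μHE[2] (B i) ∧
    (1 / 2 : ℝ≥0∞) * (⨅ v : {v : EuclideanSpace ℝ (Fin 3) // ‖v‖ = 1},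
        μHE[2] ((fun x : EuclideanSpace ℝ (Fin 3) => x - (inner ℝ v.1 x : ℝ) • v.1) '' K))
      ≤ ∑ i, μHE[2] (B i) := by
  have h := Vale.Agent.Lib.P243.coplanar_hausdorff K hconv hcomp m u hu e he hcop B hB hcov
  refine ⟨h, le_trans ?_ h⟩
  gcongr
  exact le_iInf fun v => iInf_le_of_le ⟨v.1, v.2.1⟩ le_rfl

end Vale.Agent.Results.P243.CoplanarAxes
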