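import Vale.Agent.Lib.P243.Refined

/-! P243: a refinement of the volumetric one-third bound for cylinder coverings, which gives the
directionwise one-half inequality for coverings with at most two axis directions. -/

namespace Vale.Agent.Results.P243.RefinedVolumetric

open MeasureTheory
open scoped ENNReal

/-- Let `K` be a convex body in Euclidean three-space covered by `n` cylinders `B j + ℝ (u (d j))`,
where `u 0, ..., u (m - 1)` are unit vectors (the axis directions that occur), `d j` is the index
of the direction of the `j`-th cylinder and the base `B j` is any subset of finite area of the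
plane orthogonal to `u (d j)`.  Areas are measured by `μHE[2]`, the two-dimensional Euclidean
Hausdorff measure of Mathlib (planar Lebesgue measure on every plane), and
`x - (inner v x) • v` is the orthogonal projection of `x` onto the plane orthogonal to the unit
vector `v`.  Let `r j` be the area of `B j` divided by the area of the projection of `K` along the
axis of the `j`-th cylinder, so that `∑ j, r j` is the directionwise relative area of the covering,
and let `β i` be the minimum of `1` and the sum of the `r j` over the cylinders with direction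
`u i`.  Then `∑ i, (3 β i - 2 (β i) ^ (3 / 2)) ≥ 1`, with the listed consequences. -/
theorem result (K : Set (EuclideanSpace ℝ (Fin 3))) (hconv : Convex ℝ K) (hcomp : IsCompact K)
    (hint : (interior K).Nonempty)
    (m n : ℕ) (u : Fin m → EuclideanSpace ℝ (Fin 3)) (hu : ∀ i, ‖u i‖ = 1) (d : Fin n → Fin m)
    (B : Fin n → Set (EuclideanSpace ℝ (Fin 3)))
    (hB : ∀ j, ∀ b ∈ B j, inner ℝ (u (d j)) b = 0) (hfin : ∀ j, μHE[2] (B j) ≠ ⊤)
    (hcov : ∀ x ∈ K, ∃ j, ∃ b ∈ B j, ∃ t : ℝ, x = b + t • u (d j))
    (r : Fin n → ℝ) (hr : ∀ j, r j = (μHE[2] (B j)).toReal / (μHE[2] ((fun x :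
      EuclideanSpace ℝ (Fin 3) => x - (inner ℝ (u (d j)) x : ℝ) • u (d j)) '' K)).toReal)
    (β : Fin m → ℝ) (hβ : ∀ i, β i = min 1 (∑ j with d j = i, r j)) :
    1 ≤ ∑ i, (3 * β i - 2 * β i * √(β i)) ∧
    1 / 3 + 2 / 3 * ∑ i, β i * √(β i) ≤ ∑ j, r j ∧
    (∀ t : ℝ, 0 ≤ t → t < 1 → m * (3 * t ^ 2 - 2 * t ^ 3) ≤ 1 → m * t ^ 2 ≤ ∑ j, r j) ∧
    (m ≤ 2 → 1 / 2 ≤ ∑ j, r j) ∧
    1 / 3 + 2 / (9 * √(3 * m)) ≤ ∑ j, r j := by
  obtain ⟨h0, hle, h1⟩ := Vale.Agent.Lib.P243.refined_directions K hconv hcomp hint m n u hu d B hB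
    hfin hcov r hr β hβ
  obtain ⟨c1, c2, c3, c4⟩ := Vale.Agent.Lib.P243.refined_consequences m β h0 h1
  exact ⟨h1, c1.trans hle, fun t a1 a2 a3 => (c2 t a1 a2 a3).trans hle,
    fun hm => (c3 hm).trans hle, c4.trans hle⟩

end Vale.Agent.Results.P243.RefinedVolumetric
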