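import Vale.Agent.Lib.P243.SymMain

/-! P243: cylinder coverings of centrally symmetric convex bodies in three-space have
directionwise relative area at least five twelfths. -/

namespace Vale.Agent.Results.P243.SymmetricBodies

open MeasureTheory
open scoped ENNReal

/-- Let `K` be a convex body in Euclidean three-space with `K = -K`, covered by `n` cylinders
`B j + ℝ (u j)`, where `u j` is a unit vector and the base `B j` is any subset of the plane
orthogonal to `u j`.  Areas are measured by `μHE[2]`, the two-dimensional Euclidean Hausdorff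
measure of Mathlib (planar Lebesgue measure on every plane), and `x - (inner v x) • v` is the
orthogonal projection of `x` onto the plane orthogonal to the unit vector `v`.  Then the total base
area is at least `5 / 12` of the smallest area of a projection of `K`, and (for bases of finite
area) the directionwise relative area of the covering is at least `5 / 12`. -/
theorem result (K : Set (EuclideanSpace ℝ (Fin 3))) (hconv : Convex ℝ K) (hcomp : IsCompact K)
    (hint : (interior K).Nonempty) (hsym : ∀ x ∈ K, -x ∈ K)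
    (n : ℕ) (u : Fin n → EuclideanSpace ℝ (Fin 3)) (hu : ∀ j, ‖u j‖ = 1)
    (B : Fin n → Set (EuclideanSpace ℝ (Fin 3)))
    (hB : ∀ j, ∀ b ∈ B j, inner ℝ (u j) b = 0)
    (hcov : ∀ x ∈ K, ∃ j, ∃ b ∈ B j, ∃ t : ℝ, x = b + t • u j) :
    ((∀ j, μHE[2] (B j) ≠ ⊤) →
      5 / 12 ≤ ∑ j, (μHE[2] (B j)).toReal / (μHE[2] ((fun x :
        EuclideanSpace ℝ (Fin 3) => x - (inner ℝ (u j) x : ℝ) • u j) '' K)).toReal) ∧
    (5 / 12 : ℝ≥0∞) * (⨅ v : {v : EuclideanSpace ℝ (Fin 3) // ‖v‖ = 1},
        μHE[2] ((fun x : EuclideanSpace ℝ (Fin 3) => x - (inner ℝ v.1 x : ℝ) • v.1) '' K))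
      ≤ ∑ j, μHE[2] (B j) :=
  ⟨fun hfin => Vale.Agent.Lib.P243.sym_cover K hconv hcomp hint hsym n u hu B hB hfin hcov,
    Vale.Agent.Lib.P243.sym_cover_abs K hconv hcomp hint hsym n u hu B hB hcov⟩

end Vale.Agent.Results.P243.SymmetricBodies
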