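import Vale.Agent.Lib.P243.SymMain

/-! P243: three results on cylinder coverings of convex bodies in three-space in one statement:
the refined volumetric inequality (all coverings), the half-area inequality for coverings whose
axes are parallel to one plane, and the five twelfths bound for centrally symmetric bodies. -/

namespace Vale.Agent.Results.P243.ThreePartialResults

open MeasureTheory
open scoped ENNReal

/-- Euclidean three-space. -/
abbrev E3 : Type := EuclideanSpace ℝ (Fin 3)

/-- The area of the orthogonal projection of `K` onto the plane orthogonal to the unit vector `v`;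
areas are measured by the two-dimensional Euclidean Hausdorff measure. -/
noncomputable def shadow (K : Set E3) (v : E3) : ℝ≥0∞ :=
  μHE[2] ((fun x : E3 => x - (inner ℝ v x : ℝ) • v) '' K)

/-- The smallest area of an orthogonal projection of `K` onto a plane. -/
noncomputable def minShadow (K : Set E3) : ℝ≥0∞ := ⨅ v : {v : E3 // ‖v‖ = 1}, shadow K v.1

/-- The cylinders `B j + ℝ (u j)`, with unit axis directions `u j` and bases `B j` in the planes
orthogonal to the axes, cover `K`. -/
def Covers (K : Set E3) (n : ℕ) (u : Fin n → E3) (B : Fin n → Set E3) : Prop :=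
  (∀ j, ‖u j‖ = 1) ∧ (∀ j, ∀ b ∈ B j, inner ℝ (u j) b = 0) ∧
    ∀ x ∈ K, ∃ j, ∃ b ∈ B j, ∃ t : ℝ, x = b + t • u j

/-- The relative area of the `j`-th cylinder. -/
noncomputable def rel (K : Set E3) (n : ℕ) (u : Fin n → E3) (B : Fin n → Set E3) (j : Fin n) : ℝ :=
  (μHE[2] (B j)).toReal / (shadow K (u j)).toReal

/-- Convex bodies. -/
def Body (K : Set E3) : Prop := Convex ℝ K ∧ IsCompact K ∧ (interior K).Nonempty

/-- First part: `K` is a convex body covered by `n` cylinders of finite base area whose axis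
directions are `w (d j)`, with `w 0, ..., w (m - 1)` the directions that occur, and `β i` is the
minimum of `1` and the sum of the relative areas of the cylinders with direction `w i`.
Second part: `K` is compact convex and all axis directions are orthogonal to one unit vector `e`.
Third part: `K` is a convex body with `K = -K`. -/
theorem result :
    (∀ K : Set E3, Body K → ∀ (m n : ℕ) (w : Fin m → E3) (d : Fin n → Fin m) (B : Fin n → Set E3),
      Covers K n (fun j => w (d j)) B → (∀ j, μHE[2] (B j) ≠ ⊤) →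
      ∀ β : Fin m → ℝ, (∀ i, β i = min 1 (∑ j with d j = i, rel K n (fun j => w (d j)) B j)) →
        1 ≤ ∑ i, (3 * β i - 2 * β i * √(β i)) ∧
        1 / 3 + 2 / 3 * ∑ i, β i * √(β i) ≤ ∑ j, rel K n (fun j => w (d j)) B j ∧
        (∀ t : ℝ, 0 ≤ t → t < 1 → m * (3 * t ^ 2 - 2 * t ^ 3) ≤ 1 →
          m * t ^ 2 ≤ ∑ j, rel K n (fun j => w (d j)) B j) ∧
        (m ≤ 2 → 1 / 2 ≤ ∑ j, rel K n (fun j => w (d j)) B j) ∧
        1 / 3 + 2 / (9 * √(3 * m)) ≤ ∑ j, rel K n (fun j => w (d j)) B j) ∧
    (∀ K : Set E3, Convex ℝ K → IsCompact K → ∀ (n : ℕ) (u : Fin n → E3) (B : Fin n → Set E3),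
      Covers K n u B → ∀ e : E3, ‖e‖ = 1 → (∀ j, inner ℝ e (u j) = 0) →
        (1 / 2 : ℝ≥0∞) * minShadow K ≤ ∑ j, μHE[2] (B j)) ∧
    (∀ K : Set E3, Body K → (∀ x ∈ K, -x ∈ K) →
      ∀ (n : ℕ) (u : Fin n → E3) (B : Fin n → Set E3), Covers K n u B →
        ((∀ j, μHE[2] (B j) ≠ ⊤) → 5 / 12 ≤ ∑ j, rel K n u B j) ∧
        (5 / 12 : ℝ≥0∞) * minShadow K ≤ ∑ j, μHE[2] (B j)) := by
  refine ⟨?_, ?_, ?_⟩
  · rintro K ⟨hconv, hcomp, hint⟩ m n w d B ⟨hu, hB, hcov⟩ hfin β hβ
    -- directions that do not occur may fail to be unit vectors: replace them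
    rcases Nat.eq_zero_or_pos n with hn | hn
    · subst hn
      obtain ⟨x, hx⟩ := hint
      obtain ⟨j, -⟩ := hcov x (interior_subset hx)
      exact j.elim0
    classical
    set j0 : Fin n := ⟨0, hn⟩
    set w' : Fin m → E3 := fun i => if ∃ j, d j = i then w i else w (d j0) with hw'
    have hw'd : ∀ j, w' (d j) = w (d j) := by
      intro j
      simp only [hw']
      rw [if_pos ⟨j, rfl⟩]
    have hw'u : ∀ i, ‖w' i‖ = 1 := by
      intro i
      simp only [hw']
      split_ifs with h
      · obtain ⟨j, rfl⟩ := h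
        exact hu j
      · exact hu j0
    obtain ⟨h0, hle, h1⟩ := Vale.Agent.Lib.P243.refined_directions K hconv hcomp hint m n w' hw'u d B
      (by intro j; rw [hw'd]; exact hB j) hfin
      (by
        intro x hx
        obtain ⟨j, b, hb, t, hxe⟩ := hcov x hx
        exact ⟨j, b, hb, t, by rw [hw'd]; exact hxe⟩)
      (rel K n (fun j => w (d j)) B) (by intro j; rw [hw'd]; rfl) β hβ
    obtain ⟨c1, c2, c3, c4⟩ := Vale.Agent.Lib.P243.refined_consequences m β h0 h1
    exact ⟨h1, c1.trans hle, fun t a1 a2 a3 => (c2 t a1 a2 a3).trans hle,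
      fun hm => (c3 hm).trans hle, c4.trans hle⟩
  · rintro K hconv hcomp n u B ⟨hu, hB, hcov⟩ e he hcop
    have h := Vale.Agent.Lib.P243.coplanar_hausdorff K hconv hcomp n u hu e he hcop B hB hcov
    refine le_trans ?_ h
    gcongr
    exact le_iInf fun v => iInf_le_of_le ⟨v.1, v.2.1⟩ le_rfl
  · rintro K ⟨hconv, hcomp, hint⟩ hsym n u B ⟨hu, hB, hcov⟩
    exact ⟨fun hfin => Vale.Agent.Lib.P243.sym_cover K hconv hcomp hint hsym n u hu B hB hfin hcov,
      Vale.Agent.Lib.P243.sym_cover_abs K hconv hcomp hint hsym n u hu B hB hcov⟩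

end Vale.Agent.Results.P243.ThreePartialResults
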