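import Vale.Agent.Lib.P243.Refined

/-! P243: the two results on cylinder coverings of convex bodies in three-space in one statement:
the refined volumetric inequality (all coverings) and the half-area inequality for coverings
whose axes are parallel to one plane. -/

namespace Vale.Agent.Results.P243.TwoDirectionsAndCoplanar

open MeasureTheory
open scoped ENNReal

/-- Areas are measured by `μHE[2]`, the two-dimensional Euclidean Hausdorff measure of Mathlib
(planar Lebesgue measure on every plane); `x - (inner v x) • v` is the orthogonal projection of `x`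
onto the plane orthogonal to the unit vector `v`.

First part.  `K` is a convex body covered by `n` cylinders `B j + ℝ (u (d j))`, where
`u 0, ..., u (m - 1)` are unit vectors, `d j` is the index of the direction of the `j`-th cylinder
and the base `B j` is any subset of finite area of the plane orthogonal to `u (d j)`; `r j` is the
area of `B j` divided by the area of the projection of `K` along the axis of the `j`-th cylinder,
and `β i` is the minimum of `1` and the sum of the `r j` over the cylinders with direction `u i`.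

Second part.  `K` is a compact convex set covered by `m` cylinders `B i + ℝ (u i)` all of whose
axis directions are orthogonal to one unit vector `e`. -/
theorem result :
    (∀ K : Set (EuclideanSpace ℝ (Fin 3)), Convex ℝ K → IsCompact K → (interior K).Nonempty →
      ∀ (m n : ℕ) (u : Fin m → EuclideanSpace ℝ (Fin 3)), (∀ i, ‖u i‖ = 1) →
      ∀ (d : Fin n → Fin m) (B : Fin n → Set (EuclideanSpace ℝ (Fin 3))),
      (∀ j, ∀ b ∈ B j, inner ℝ (u (d j)) b = 0) → (∀ j, μHE[2] (B j) ≠ ⊤) →
      (∀ x ∈ K, ∃ j, ∃ b ∈ B j, ∃ t : ℝ, x = b + t • u (d j)) →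
      ∀ r : Fin n → ℝ, (∀ j, r j = (μHE[2] (B j)).toReal / (μHE[2] ((fun x :
        EuclideanSpace ℝ (Fin 3) => x - (inner ℝ (u (d j)) x : ℝ) • u (d j)) '' K)).toReal) →
      ∀ β : Fin m → ℝ, (∀ i, β i = min 1 (∑ j with d j = i, r j)) →
        1 ≤ ∑ i, (3 * β i - 2 * β i * √(β i)) ∧
        1 / 3 + 2 / 3 * ∑ i, β i * √(β i) ≤ ∑ j, r j ∧
        (∀ t : ℝ, 0 ≤ t → t < 1 → m * (3 * t ^ 2 - 2 * t ^ 3) ≤ 1 → m * t ^ 2 ≤ ∑ j, r j) ∧
        (m ≤ 2 → 1 / 2 ≤ ∑ j, r j) ∧
        1 / 3 + 2 / (9 * √(3 * m)) ≤ ∑ j, r j) ∧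
    (∀ K : Set (EuclideanSpace ℝ (Fin 3)), Convex ℝ K → IsCompact K →
      ∀ (m : ℕ) (u : Fin m → EuclideanSpace ℝ (Fin 3)), (∀ i, ‖u i‖ = 1) →
      ∀ e : EuclideanSpace ℝ (Fin 3), ‖e‖ = 1 → (∀ i, inner ℝ e (u i) = 0) →
      ∀ B : Fin m → Set (EuclideanSpace ℝ (Fin 3)), (∀ i, ∀ b ∈ B i, inner ℝ (u i) b = 0) →
      (∀ x ∈ K, ∃ i, ∃ b ∈ B i, ∃ t : ℝ, x = b + t • u i) →
        (1 / 2 : ℝ≥0∞) * (⨅ v : {v : EuclideanSpace ℝ (Fin 3) // ‖v‖ = 1},
          μHE[2] ((fun x : EuclideanSpace ℝ (Fin 3) => x - (inner ℝ v.1 x : ℝ) • v.1) '' K))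
        ≤ ∑ i, μHE[2] (B i)) := by
  constructor
  · intro K hconv hcomp hint m n u hu d B hB hfin hcov r hr β hβ
    obtain ⟨h0, hle, h1⟩ := Vale.Agent.Lib.P243.refined_directions K hconv hcomp hint m n u hu d B
      hB hfin hcov r hr β hβ
    obtain ⟨c1, c2, c3, c4⟩ := Vale.Agent.Lib.P243.refined_consequences m β h0 h1
    exact ⟨h1, c1.trans hle, fun t a1 a2 a3 => (c2 t a1 a2 a3).trans hle,
      fun hm => (c3 hm).trans hle, c4.trans hle⟩
  · intro K hconv hcomp m u hu e he hcop B hB hcov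
    have h := Vale.Agent.Lib.P243.coplanar_hausdorff K hconv hcomp m u hu e he hcop B hB hcov
    refine le_trans ?_ h
    gcongr
    exact le_iInf fun v => iInf_le_of_le ⟨v.1, v.2.1⟩ le_rfl

end Vale.Agent.Results.P243.TwoDirectionsAndCoplanar
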